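import Vale.Agent.Lib.P066B.Graph

/-!
Elementary positivity, with coefficients in the natural number polynomials in `q`, for the chromatic
quasisymmetric functions of all natural unit interval graphs with `h i ≤ i + 2`, that is, of clique
number at most three.
-/

namespace Vale.Agent.Results.P066.A0BandTwo

open Vale.Agent.Lib.P066H

/-- Let `h` be a Hessenberg function on the vertices `0, ..., n - 1` (weakly increasing, with
`i ≤ h i < n`) such that moreover `h i ≤ i + 2` for all `i`. Then the chromatic quasisymmetric function
of the graph with edges `i < j ≤ h i` has an expansion in the products `e_l` of elementary symmetric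
polynomials, indexed by the partitions `l` of `n`, with coefficients `c l` in `ℕ[q]` that do not
depend on the number `N` of variables. -/
theorem result (h : ℕ → ℕ) (n : ℕ) (hb : ∀ i, i < n → i ≤ h i ∧ h i ≤ i + 2 ∧ h i < n)
    (hm : ∀ i j, i ≤ j → j < n → h i ≤ h j) :
    ∃ c : Nat.Partition n → Polynomial ℕ, ∀ N : ℕ,
      chromQ h n N = ∑ l : Nat.Partition n,
        MvPolynomial.C ((c l).map (Nat.castRingHom ℤ))
          * (l.parts.map (MvPolynomial.esymm (Fin N) (Polynomial ℤ))).prod :=
  Vale.Agent.Lib.P066B.band_two h n hb hm

end Vale.Agent.Results.P066.A0BandTwo
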