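import Vale.Agent.Lib.P066H.Final

/-!
Elementary positivity, with coefficients in the natural number polynomials in `q`, for the chromatic
quasisymmetric functions of all row-star chain graphs.
-/

namespace Vale.Agent.Results.P066.RowStarChain

open Vale.Agent.Lib.P066H

/-- For every valid block list `L`, `hChain L` is a Hessenberg function on the vertices
`0, ..., chainLast L`, and the chromatic quasisymmetric function of its graph has an expansion
in the products `e_l` of elementary symmetric polynomials, indexed by the partitions `l` of the number
of vertices, with coefficients `c l` in `ℕ[q]` that do not depend on the number `N` of variables. -/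
theorem result (L : List (ℕ × ℕ)) (hL : ValidChain L) :
    (∀ v, v ≤ chainLast L → v ≤ hChain L v ∧ hChain L v ≤ chainLast L) ∧
    (∀ u v, u ≤ v → v ≤ chainLast L → hChain L u ≤ hChain L v) ∧
    ∃ c : Nat.Partition (chainLast L + 1) → Polynomial ℕ, ∀ N : ℕ,
      chromQ (hChain L) (chainLast L + 1) N = ∑ l : Nat.Partition (chainLast L + 1),
        MvPolynomial.C ((c l).map (Nat.castRingHom ℤ))
          * (l.parts.map (MvPolynomial.esymm (Fin N) (Polynomial ℤ))).prod := by
  obtain ⟨h1, h2⟩ := hChain_spec L hL
  obtain ⟨F, hF, hF'⟩ := main_F L hL
  obtain ⟨c, hc⟩ := main_partition _ F hF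
  exact ⟨h1, h2, c, fun N => by rw [hF', hc]⟩

end Vale.Agent.Results.P066.RowStarChain
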