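import Vale.Agent.Lib.P066T.Family

/-!
A divided form of the modular law for chromatic quasisymmetric functions, the positive recursion it
gives, and an explicit family of graphs to which the recursion applies.
-/

namespace Vale.Agent.Results.P066.TwinReduction

open Finset Vale.Agent.Lib.P066H Vale.Agent.Lib.P066T

/-- (A) The divided modular law, for every `h`, `T = [p, p+t)`, `V = [u, u+w)` as in `RuleData` and
every number `N` of variables: with `ι` the inclusion of `ℕ[q]` in `ℤ[q]`,
`[t choose r]_q χ_h = ∑_j [t-w choose r-j]_q q^((w-j)(r-j)) [w choose j]_q χ_(h_j)`, where `h_j` is `h`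
with the value `u+j-1` on `T`.

(B) Every graph of the class `Twin` (cliques, disjoint unions, mirror images, the law (A)) satisfies
`χ_h = d(q) ∑_l c_l(q) e_l` with all `c_l` in `ℕ[q]`, the same `c_l` for all `N`.

(C) For all `a, e` and all `b, l, d ≥ 1`, the function `meltedPath a b l d e` is a Hessenberg function on
its `n = a+b+l+d+e` vertices, its graph belongs to `Twin`, with the divisor
`d(q) = [a]_q! [b]_q! [d]_q! [e]_q!`, and so it has such an expansion. -/
theorem result :
    (∀ (h : ℕ → ℕ) (n p t u w r : ℕ), RuleData h n p t u w r → ∀ N : ℕ,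
      MvPolynomial.C ((qbin t r).map (Nat.castRingHom ℤ)) * chromQ h n N
        = ∑ j ∈ range (r + 1),
            MvPolynomial.C ((qbin (t - w) (r - j) * Polynomial.X ^ ((w - j) * (r - j))
              * qbin w j).map (Nat.castRingHom ℤ))
            * chromQ (hmod h p t (fun _ => u + j - 1)) n N) ∧
    (∀ (n : ℕ) (h : ℕ → ℕ) (d : Polynomial ℕ), Twin n h d →
      ∃ c : Nat.Partition n → Polynomial ℕ, ∀ N : ℕ,
        chromQ h n N = MvPolynomial.C (d.map (Nat.castRingHom ℤ))
          * ∑ l : Nat.Partition n, MvPolynomial.C ((c l).map (Nat.castRingHom ℤ))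
            * (l.parts.map (MvPolynomial.esymm (Fin N) (Polynomial ℤ))).prod) ∧
    (∀ a b l d e : ℕ, 1 ≤ b → 1 ≤ l → 1 ≤ d →
      (∀ v, v < a + b + l + d + e → v ≤ meltedPath a b l d e v
          ∧ meltedPath a b l d e v < a + b + l + d + e) ∧
      (∀ u v, u ≤ v → v < a + b + l + d + e →
          meltedPath a b l d e u ≤ meltedPath a b l d e v) ∧
      Twin (a + b + l + d + e) (meltedPath a b l d e) (qfac a * qfac b * qfac d * qfac e)) := by
  refine ⟨fun h n p t u w r D N => chrom_rule D N, fun n h d H => H.expansion,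
    fun a b l d e hb hl hd => ?_⟩
  obtain ⟨h1, h2⟩ := meltedPath_spec a b l d e hb hl
  exact ⟨h1, h2, meltedPath_twin d e hd l a b _ hb (fun h0 => absurd h0 (by omega)) rfl⟩

end Vale.Agent.Results.P066.TwinReduction
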