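import Vale.Agent.Results.P066.A0BandTwo
import Vale.Agent.Results.P066.RowStarChain
import Vale.Agent.Results.P066.TwinReduction

/-!
Conjunction of the three results on elementary positivity for chromatic quasisymmetric functions:
the band case `h i ≤ i + 2`, the row-star chains, and the divided modular law with its class `Twin`.
-/

namespace Vale.Agent.Results.P066.A0Conj

open Finset Vale.Agent.Lib.P066H Vale.Agent.Lib.P066T

/-- (1) Elementary positivity for all graphs with `h i ≤ i + 2`. (2) Elementary positivity for all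
row-star chain graphs. (3) The divided modular law, (4) elementary positivity with the divisor `d`
on the class `Twin`, (5) the melted paths are Hessenberg functions in `Twin`. -/
theorem result :
    (∀ (h : ℕ → ℕ) (n : ℕ), (∀ i, i < n → i ≤ h i ∧ h i ≤ i + 2 ∧ h i < n) →
      (∀ i j, i ≤ j → j < n → h i ≤ h j) →
      ∃ c : Nat.Partition n → Polynomial ℕ, ∀ N : ℕ,
        chromQ h n N = ∑ l : Nat.Partition n,
          MvPolynomial.C ((c l).map (Nat.castRingHom ℤ))
            * (l.parts.map (MvPolynomial.esymm (Fin N) (Polynomial ℤ))).prod) ∧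
    (∀ L : List (ℕ × ℕ), ValidChain L →
      (∀ v, v ≤ chainLast L → v ≤ hChain L v ∧ hChain L v ≤ chainLast L) ∧
      (∀ u v, u ≤ v → v ≤ chainLast L → hChain L u ≤ hChain L v) ∧
      ∃ c : Nat.Partition (chainLast L + 1) → Polynomial ℕ, ∀ N : ℕ,
        chromQ (hChain L) (chainLast L + 1) N = ∑ l : Nat.Partition (chainLast L + 1),
          MvPolynomial.C ((c l).map (Nat.castRingHom ℤ))
            * (l.parts.map (MvPolynomial.esymm (Fin N) (Polynomial ℤ))).prod) ∧
    (∀ (h : ℕ → ℕ) (n p t u w r : ℕ), RuleData h n p t u w r → ∀ N : ℕ,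
      MvPolynomial.C ((qbin t r).map (Nat.castRingHom ℤ)) * chromQ h n N
        = ∑ j ∈ range (r + 1),
            MvPolynomial.C ((qbin (t - w) (r - j) * Polynomial.X ^ ((w - j) * (r - j))
              * qbin w j).map (Nat.castRingHom ℤ))
            * chromQ (hmod h p t (fun _ => u + j - 1)) n N) ∧
    (∀ (n : ℕ) (h : ℕ → ℕ) (d : Polynomial ℕ), Twin n h d →
      ∃ c : Nat.Partition n → Polynomial ℕ, ∀ N : ℕ,
        chromQ h n N = MvPolynomial.C (d.map (Nat.castRingHom ℤ))
          * ∑ l : Nat.Partition n, MvPolynomial.C ((c l).map (Nat.castRingHom ℤ))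
            * (l.parts.map (MvPolynomial.esymm (Fin N) (Polynomial ℤ))).prod) ∧
    (∀ a b l d e : ℕ, 1 ≤ b → 1 ≤ l → 1 ≤ d →
      (∀ v, v < a + b + l + d + e → v ≤ meltedPath a b l d e v
          ∧ meltedPath a b l d e v < a + b + l + d + e) ∧
      (∀ u v, u ≤ v → v < a + b + l + d + e →
          meltedPath a b l d e u ≤ meltedPath a b l d e v) ∧
      Twin (a + b + l + d + e) (meltedPath a b l d e) (qfac a * qfac b * qfac d * qfac e)) :=
  ⟨fun h n hb hm => Vale.Agent.Results.P066.A0BandTwo.result h n hb hm,
    fun L hL => Vale.Agent.Results.P066.RowStarChain.result L hL,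
    Vale.Agent.Results.P066.TwinReduction.result.1,
    Vale.Agent.Results.P066.TwinReduction.result.2.1,
    Vale.Agent.Results.P066.TwinReduction.result.2.2⟩

end Vale.Agent.Results.P066.A0Conj
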